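import Mathlib

namespace Vale.Agent.P089

/-- The Hilbert space of square-summable complex functions on `G`. -/
abbrev L2 (G : Type) : Type := lp (fun _ : G => ℂ) 2

/-- The left regular operators: bounded `T` with `(T ξ)(h) = ξ(g⁻¹ h)` for some `g`. -/
def leftReg (G : Type) [Group G] : Set (L2 G →L[ℂ] L2 G) :=
  {T | ∃ g : G, ∀ (ξ : L2 G) (h : G), T ξ h = ξ (g⁻¹ * h)}

open Classical in
/-- The Dirac mass at the unit. -/
noncomputable def dirac (G : Type) [Group G] : L2 G := lp.single 2 (1 : G) (1 : ℂ)

/-- The norm closure of the complex linear span of a subset of a normed space. -/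
def closedSpan {A : Type} [NormedAddCommGroup A] [NormedSpace ℂ A] (S : Set A) : Set A :=
  closure (Submodule.span ℂ S : Set A)

/-- The operator-norm closure of the span of `S` contains a projection `p` with `⟨ξ, p ξ⟩ = t`. -/
def HasProj {E : Type} [NormedAddCommGroup E] [InnerProductSpace ℂ E] [CompleteSpace E]
    (S : Set (E →L[ℂ] E)) (ξ : E) (t : ℂ) : Prop :=
  ∃ p ∈ closedSpan S, IsStarProjection p ∧ inner ℂ ξ (p ξ) = t

end Vale.Agent.P089
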